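import Crest.Agent.R163.E2.Num
import Crest.Agent.R163.ADefs2

/-!
# R163/E4/Defs: a kernel checker for `Lane.Excl` on intervals of `z` (scale `2^20`)
-/

set_option autoImplicit false

namespace Crest.Agent.R163.E4

open E2

def o64 : ℕ := 18446744073709551616
def o128 : ℕ := 340282366920938463463374607431768211456
def mulD (a b : ℕ) : ℕ := Nat.shiftRight (Nat.mul a b) 64
def mulU (a b : ℕ) : ℕ := Nat.shiftRight (Nat.add (Nat.mul a b) 18446744073709551615) 64

/-- `acc * x^n` in fixed point; `fin acc` is returned if the fuel runs out -/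
noncomputable def pw (mul : ℕ → ℕ → ℕ) (fin : ℕ → ℕ) : ℕ → ℕ → ℕ → ℕ :=
  Nat.rec (fun _ _ acc => fin acc)
    (fun _ ih x n acc => Bool.rec
      (force (Bool.rec acc (mul acc x) (Nat.beq (Nat.land n 1) 1)) fun a =>
        force (mul x x) fun y => force (Nat.shiftRight n 1) fun n' => ih y n' a)
      acc (Nat.beq n 0)) 24
/-- lower and upper bounds for `2^64 (x / 2^64)^n` (upper bound: for `x` an upper bound of a number in `[0,1]`) -/
noncomputable def powD (x n : ℕ) : ℕ := pw mulD (fun _ => 0) x n o64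
noncomputable def powU (x n : ℕ) : ℕ := pw mulU (fun a => a) x n o64

def maxN (a b : ℕ) : ℕ := Bool.rec a b (Nat.ble a b)

/-- the tangent point `x0 = X / 2^64` is admissible -/
noncomputable def conjOk (dL α β X : ℕ) : Bool :=
  or (Nat.beq α 0) (and (Nat.ble X o64) (Nat.ble (Nat.mul α (powU X (Nat.pred dL))) (Nat.mul β o64)))
/-- the constant `c`, scaled by `2^128` -/
noncomputable def conjC (dL α β X : ℕ) : ℕ :=
  Bool.rec (maxN
    (Nat.mul α (Nat.sub o128 (Nat.mul (powD X (Nat.pred dL)) (Nat.add X (Nat.mul dL (Nat.sub o64 X))))))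
    (Nat.sub (Nat.mul α (Nat.succ (Nat.add o128 (Nat.shiftRight o128 dL)))) (Nat.mul (Nat.mul β dL) o128)))
    0 (Nat.beq α 0)

/-- upper bound for `2^64 PhiU dU (Z / 2^20)`; for `dU = 0`: `exp (-z) ≤ (1 - y + y²/2)^1024`, `y = z / 1024` -/
noncomputable def phiU (dU Z : ℕ) : ℕ :=
  Bool.rec (powU (Nat.sub o64 (Nat.div (Nat.shiftLeft Z 44) dU)) dU)
    (powU (Nat.add (Nat.sub o64 (Nat.shiftLeft Z 34)) (Nat.mul 8 (Nat.mul Z Z))) 1024) (Nat.beq dU 0)

def zeroL : LD := ⟨0, 0, 0, 0, 0, 0, 0, 0, 0, 0, 0, 0, 0, 0, 0, 0⟩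

/-- `w • l + m`, evaluated -/
noncomputable def axpy {α : Type} (w : ℕ) (l m : LD) (k : LD → α) : α :=
  force (Nat.add (Nat.mul w l.a0) m.a0) fun a0 => force (Nat.add (Nat.mul w l.a1) m.a1) fun a1 =>
  force (Nat.add (Nat.mul w l.a2) m.a2) fun a2 => force (Nat.add (Nat.mul w l.a3) m.a3) fun a3 =>
  force (Nat.add (Nat.mul w l.a4) m.a4) fun a4 => force (Nat.add (Nat.mul w l.a5) m.a5) fun a5 =>
  force (Nat.add (Nat.mul w l.b0) m.b0) fun b0 => force (Nat.add (Nat.mul w l.b1) m.b1) fun b1 =>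
  force (Nat.add (Nat.mul w l.b2) m.b2) fun b2 => force (Nat.add (Nat.mul w l.b3) m.b3) fun b3 =>
  force (Nat.add (Nat.mul w l.b4) m.b4) fun b4 => force (Nat.add (Nat.mul w l.b5) m.b5) fun b5 =>
  force (Nat.add (Nat.mul w l.e) m.e) fun e => force (Nat.add (Nat.mul w l.np) m.np) fun np =>
  force (Nat.add (Nat.mul w l.nm) m.nm) fun nm => force (Nat.add (Nat.mul w l.g) m.g) fun g =>
  k ⟨a0, a1, a2, a3, a4, a5, b0, b1, b2, b3, b4, b5, e, np, nm, g⟩

/-- the combination `∑ w • fam[i]` -/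
noncomputable def combo (fam : List LD) (ws : List (ℕ × ℕ)) : (LD → Bool) → Bool :=
  List.rec (fun k => k zeroL) (fun p _ ih k => ih fun m => axpy p.2 (fam.getD p.1 zeroL) m k) ws

structure It where
  zb : ℕ
  ws : List (ℕ × ℕ)
  x0 : ℕ
  x1 : ℕ
  x2 : ℕ
  x3 : ℕ
  x4 : ℕ
  x5 : ℕ

noncomputable def endOk (l : LD) (dU K Z : ℕ) : Bool :=
  Nat.blt (Nat.add K (Nat.shiftLeft (Nat.mul l.nm Z) 108))
    (Nat.add (Nat.shiftLeft (Nat.mul l.e (Nat.sub o64 (phiU dU Z))) 64) (Nat.shiftLeft (Nat.mul l.np Z) 108))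

noncomputable def laneOk (l : LD) (dL dU za : ℕ) (it : It) : Bool :=
  and (and (and (conjOk dL l.a0 l.b0 it.x0) (conjOk dL l.a1 l.b1 it.x1))
      (and (conjOk dL l.a2 l.b2 it.x2) (conjOk dL l.a3 l.b3 it.x3)))
    (and (and (conjOk dL l.a4 l.b4 it.x4) (conjOk dL l.a5 l.b5 it.x5))
      (force (Nat.add (Nat.add (Nat.add (conjC dL l.a0 l.b0 it.x0) (conjC dL l.a1 l.b1 it.x1))
          (Nat.add (conjC dL l.a2 l.b2 it.x2) (conjC dL l.a3 l.b3 it.x3)))
        (Nat.add (Nat.add (conjC dL l.a4 l.b4 it.x4) (conjC dL l.a5 l.b5 it.x5)) (Nat.mul l.g o128)))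
        fun K => and (Nat.ble it.zb 4194304) (and (endOk l dU K za) (endOk l dU K it.zb))))

/-- covers `(za, zE]` -/
noncomputable def cover (fam : List LD) (dL dU zE : ℕ) (its : List It) : ℕ → Bool :=
  List.rec (fun za => Nat.ble zE za)
    (fun it _ ih za => and (combo fam it.ws fun l => laneOk l dL dU za it) (ih it.zb)) its

end Crest.Agent.R163.E4
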