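import Crest.Agent.R163.E4.Defs
import Crest.Agent.R163.AReduce2

/-!
# R163/E4/Sound: soundness of the scalar checker

`pw`: induction on the fuel (state it for an arbitrary fuel, generalising `x n acc`).  `conj_sound`: `Off.Cls.tan` with `ζ0 = dL (1 - X/2^64)`, so `1 - ζ0/dL = X/2^64` and
`x0^dL + ζ0 x0^(dL-1) = x0^(dL-1) (x0 + ζ0)`; truncated subtraction only increases `c`; `2^128 / 2^dL + 1 ≥ 2^128 (1/2)^dL`.  `phiU_sound`: `ACls_exp_le`, `Real.exp_nat_mul`.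
`combo`: the combination is `Valid` (`Lane.Valid.comb`, the zero lane has `F = 0`).  `laneOk_sound`: `c j = conjC / 2^128`, `Off.Cls.up`, `phiU_concave`
(a negative `1 - PhiU` cannot occur, but truncated subtraction `o64 - phiU ≤ 2^64 (1 - PhiU)` needs `PhiU ≤ 1`).
-/

set_option autoImplicit false

namespace Crest.Agent.R163.E4

open E2

/-- `pw` with arbitrary fuel -/
noncomputable def pwF (mul : ℕ → ℕ → ℕ) (fin : ℕ → ℕ) (f : ℕ) : ℕ → ℕ → ℕ → ℕ :=
  Nat.rec (fun _ _ acc => fin acc)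
    (fun _ ih x n acc => Bool.rec
      (force (Bool.rec acc (mul acc x) (Nat.beq (Nat.land n 1) 1)) fun a =>
        force (mul x x) fun y => force (Nat.shiftRight n 1) fun n' => ih y n' a)
      acc (Nat.beq n 0)) f

theorem snd_rec {α : Type} (a b : α) (m n : ℕ) :
    (Bool.rec a b (Nat.beq m n) : α) = if m = n then b else a := by
  split_ifs with h
  · rw [h, Nat.beq_refl]
  · rw [Bool.eq_false_iff.2 fun h' => h (Nat.eq_of_beq_eq_true h')]

theorem pwF_succ (mul : ℕ → ℕ → ℕ) (fin : ℕ → ℕ) (f x n acc : ℕ) : pwF mul fin (f + 1) x n acc =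
    if n = 0 then acc else pwF mul fin f (mul x x) (n / 2) (if n % 2 = 1 then mul acc x else acc) := by
  show (Bool.rec (force (Bool.rec acc (mul acc x) (Nat.beq (Nat.land n 1) 1)) fun a =>
    force (mul x x) fun y => force (Nat.shiftRight n 1) fun n' => pwF mul fin f y n' a) acc (Nat.beq n 0) : ℕ) = _
  simp only [snd_rec, force_eq, Nat.land_eq, Nat.and_one_is_mod, Nat.shiftRight_eq, Nat.shiftRight_one]

theorem mulD_le (a b : ℕ) : (mulD a b : ℝ) ≤ a * (b / 2 ^ 64) := by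
  rw [mulD, Nat.shiftRight_eq, Nat.shiftRight_eq_div_pow, Nat.mul_eq, ← mul_div_assoc]
  exact Nat.cast_div_le.trans_eq (by rw [Nat.cast_mul, Nat.cast_pow, Nat.cast_ofNat])

theorem le_mulU (a b : ℕ) : (a : ℝ) * b ≤ mulU a b * 2 ^ 64 := by
  have : a * b ≤ mulU a b * 2 ^ 64 := by
    rw [mulU, Nat.shiftRight_eq, Nat.shiftRight_eq_div_pow, Nat.add_eq, Nat.mul_eq]
    omega
  exact_mod_cast this

theorem snd_pow (y : ℝ) (n : ℕ) : y ^ n = (if n % 2 = 1 then y else 1) * (y * y) ^ (n / 2) := by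
  conv_lhs => rw [← Nat.mod_add_div n 2, pow_add, pow_mul, sq]
  rcases Nat.mod_two_eq_zero_or_one n with h | h <;> simp [h]

theorem pwF_le (f : ℕ) : ∀ x n acc : ℕ, (pwF mulD (fun _ => 0) f x n acc : ℝ) ≤ acc * ((x : ℝ) / 2 ^ 64) ^ n := by
  induction f with
  | zero => intro x n acc; exact (Nat.cast_zero (R := ℝ)).le.trans (by positivity)
  | succ f ih =>
    intro x n acc
    rw [pwF_succ]
    by_cases h : n = 0
    · simp [h]
    · rw [if_neg h, snd_pow _ n, ← mul_assoc]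
      refine (ih _ _ _).trans (mul_le_mul ?_ (pow_le_pow_left₀ (by positivity) ?_ _) (by positivity)
        (by split_ifs <;> positivity))
      · split_ifs
        · exact mulD_le _ _
        · rw [mul_one]
      · rw [← mul_div_right_comm]
        exact div_le_div_of_nonneg_right (mulD_le _ _) (by positivity)

theorem le_pwF (f : ℕ) : ∀ (x n acc : ℕ) (y : ℝ), 0 ≤ y → y ≤ 1 → y * 2 ^ 64 ≤ x →
    acc * y ^ n ≤ (pwF mulU (fun a => a) f x n acc : ℝ) := by
  induction f with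
  | zero => intro x n acc y h0 h1 _; exact mul_le_of_le_one_right (by positivity) (pow_le_one₀ h0 h1)
  | succ f ih =>
    intro x n acc y h0 h1 h
    rw [pwF_succ]
    by_cases hn : n = 0
    · simp [hn]
    · rw [if_neg hn, snd_pow _ n, ← mul_assoc]
      refine le_trans (mul_le_mul_of_nonneg_right ?_ (by positivity))
        (ih _ _ _ (y * y) (by positivity) (mul_le_one₀ h1 h0 h1) ?_)
      · split_ifs
        · linarith [le_mulU acc x, mul_le_mul_of_nonneg_left h (Nat.cast_nonneg (α := ℝ) acc)]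
        · rw [mul_one]
      · linarith [le_mulU x x, mul_self_le_mul_self (by positivity) h]

theorem o64_cast : (o64 : ℝ) = 2 ^ 64 := by norm_num [o64]

theorem o128_cast : (o128 : ℝ) = 2 ^ 128 := by norm_num [o128]

theorem snd_sub (a b : ℕ) : (a : ℝ) - b ≤ (a - b : ℕ) := by
  have : a ≤ a - b + b := le_tsub_add
  rw [sub_le_iff_le_add]
  exact_mod_cast this

theorem powD_le (x n : ℕ) : (powD x n : ℝ) ≤ 2 ^ 64 * ((x : ℝ) / 2 ^ 64) ^ n := by
  rw [← o64_cast]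
  exact (pwF_le 24 x n o64).trans_eq (by rw [o64_cast])

theorem le_powU {x : ℕ} {y : ℝ} (h0 : 0 ≤ y) (h1 : y ≤ 1) (h : y * 2 ^ 64 ≤ x) (n : ℕ) :
    2 ^ 64 * y ^ n ≤ (powU x n : ℝ) := by
  rw [← o64_cast]
  exact le_pwF 24 x n o64 y h0 h1 h

theorem maxN_eq (a b : ℕ) : maxN a b = max a b := by
  unfold maxN
  rcases h : Nat.ble a b with _ | _
  · exact (max_eq_left (Nat.le_of_not_le fun h' => by simp [Nat.ble_eq_true_of_le h'] at h)).symm
  · exact (max_eq_right (Nat.le_of_ble_eq_true h)).symm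

theorem conj_sound {O : Off} {dL dU : ℕ} (hO : O.Cls dL dU) (hL : 0 < dL) {α β X : ℕ}
    (h : conjOk dL α β X = true) : ∀ x ∈ Set.Icc (-1 / 2 : ℝ) 1,
      (α : ℝ) * (1 - O.gen x) ≤ β * (O.d * (1 - x)) + (conjC dL α β X : ℝ) / 2 ^ 128 := by
  by_cases hα : α = 0
  · intro x hx
    have h1 : 0 ≤ O.d * (1 - x) := mul_nonneg (by linarith [hO.d_ge]) (sub_nonneg.2 hx.2)
    rw [hα, Nat.cast_zero, zero_mul]
    positivity
  simp only [conjOk, Bool.or_eq_true, Bool.and_eq_true, Nat.beq_eq, Nat.ble_eq, hα, false_or, Nat.mul_eq,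
    Nat.pred_eq_sub_one] at h
  have hC : conjC dL α β X = max (α * (o128 - powD X (dL - 1) * (X + dL * (o64 - X))))
      (α * (o128 + o128 / 2 ^ dL + 1) - β * dL * o128) := by
    simp only [conjC, snd_rec, hα, if_false, maxN_eq, Nat.mul_eq, Nat.sub_eq, Nat.add_eq, Nat.pred_eq_sub_one,
      Nat.succ_eq_add_one, Nat.shiftRight_eq, Nat.shiftRight_eq_div_pow]
  have hL' : (0 : ℝ) < dL := by exact_mod_cast hL
  have hα' : (0 : ℝ) ≤ α := Nat.cast_nonneg _
  obtain ⟨y, hy⟩ : ∃ y : ℝ, y = X / 2 ^ 64 := ⟨_, rfl⟩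
  have hX : (X : ℝ) = y * 2 ^ 64 := by rw [hy, div_mul_cancel₀ _ (by positivity)]
  have hX1 : (X : ℝ) ≤ 2 ^ 64 := by rw [← o64_cast]; exact_mod_cast h.1
  have y0 : 0 ≤ y := by rw [hy]; positivity
  have y1 : y ≤ 1 := by linarith
  have e : 1 - dL * (1 - y) / dL = y := by field_simp; ring
  refine hO.tan hL (ζ0 := dL * (1 - y)) hα' (mul_nonneg hL'.le (by linarith))
    (mul_le_of_le_one_right hL'.le (by linarith)) ?_ ?_ ?_
  · have h1 : (α : ℝ) * powU X (dL - 1) ≤ β * 2 ^ 64 := by rw [← o64_cast]; exact_mod_cast h.2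
    rw [e]
    linarith [mul_le_mul_of_nonneg_left (le_powU y0 y1 hX.ge (dL - 1)) hα']
  · have h1 : (α : ℝ) * (o128 - powD X (dL - 1) * (X + dL * (o64 - X)) : ℕ) ≤ conjC dL α β X := by
      rw [hC]; exact_mod_cast le_max_left _ _
    have h2 := snd_sub o128 (powD X (dL - 1) * (X + dL * (o64 - X)))
    rw [Nat.cast_mul, Nat.cast_add, Nat.cast_mul, Nat.cast_sub h.1, o64_cast, o128_cast, hX] at h2
    have h3 := powD_le X (dL - 1)
    rw [← hy] at h3
    have h4 := mul_le_mul_of_nonneg_right h3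
      (show 0 ≤ y * 2 ^ 64 + dL * (2 ^ 64 - y * 2 ^ 64) from add_nonneg (by positivity)
        (mul_nonneg hL'.le (by linarith)))
    have h5 : y ^ dL = y ^ (dL - 1) * y := by rw [← pow_succ, Nat.sub_add_cancel hL]
    rw [e, h5, le_div_iff₀ (by positivity), mul_assoc]
    exact (mul_le_mul_of_nonneg_left (by linarith) hα').trans h1
  · have h1 : ((α * (o128 + o128 / 2 ^ dL + 1) - β * dL * o128 : ℕ) : ℝ) ≤ conjC dL α β X := by
      rw [hC]; exact_mod_cast le_max_right _ _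
    have h2 := snd_sub (α * (o128 + o128 / 2 ^ dL + 1)) (β * dL * o128)
    have h3 : (o128 : ℝ) ≤ 2 ^ dL * ((o128 / 2 ^ dL : ℕ) + 1) := by
      exact_mod_cast (Nat.lt_mul_div_succ o128 (by positivity : 0 < 2 ^ dL)).le
    have h4 : (o128 : ℝ) * (1 / 2) ^ dL ≤ (o128 / 2 ^ dL : ℕ) + 1 := by
      rwa [one_div, inv_pow, mul_inv_le_iff₀' (by positivity)]
    simp only [Nat.cast_mul, Nat.cast_add, Nat.cast_one] at h2
    have h5 := mul_le_mul_of_nonneg_left h4 hα'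
    generalize ((o128 / 2 ^ dL : ℕ) : ℝ) = q at h2 h5
    rw [o128_cast] at h2 h5
    linarith

theorem phiU_sound {dU Z : ℕ} (hU : dU = 0 ∨ 4 ≤ dU) (hZ : Z ≤ 4194304) :
    2 ^ 64 * PhiU dU ((Z : ℝ) / 2 ^ 20) ≤ (phiU dU Z : ℝ) := by
  have hZ' : (Z : ℝ) ≤ 4194304 := by exact_mod_cast hZ
  have hZ0 : (0 : ℝ) ≤ Z := Nat.cast_nonneg _
  simp only [phiU, PhiU, snd_rec, Nat.sub_eq, Nat.add_eq, Nat.mul_eq, Nat.shiftLeft_eq', Nat.shiftLeft_eq]
  split_ifs with h
  · have h1 := ACls_exp_le (y := (Z : ℝ) / 2 ^ 30) (by positivity)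
    have h2 : Real.exp (-((Z : ℝ) / 2 ^ 20)) = Real.exp (-((Z : ℝ) / 2 ^ 30)) ^ 1024 := by
      rw [← Real.exp_nat_mul]
      congr 1
      push_cast
      ring
    rw [h2]
    refine le_powU (Real.exp_pos _).le (Real.exp_le_one_iff.2 (neg_nonpos.2 (by positivity))) ?_ _
    have h3 := snd_sub o64 (Z * 2 ^ 34)
    rw [o64_cast] at h3
    push_cast at h3 ⊢
    linarith
  · have h4 : (4 : ℝ) ≤ dU := by exact_mod_cast hU.resolve_left h
    have h5 : (Z : ℝ) / 2 ^ 20 / dU ≤ 1 := (div_le_one (by linarith)).2 (by linarith)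
    refine le_powU (by linarith) (sub_le_self _ (by positivity)) (le_trans ?_ (snd_sub _ _)) _
    have h6 : ((Z * 2 ^ 44 / dU : ℕ) : ℝ) ≤ (Z : ℝ) / 2 ^ 20 / dU * 2 ^ 64 :=
      Nat.cast_div_le.trans_eq (by push_cast; ring)
    rw [o64_cast]
    exact le_trans (by linarith) (sub_le_sub_left h6 _)

theorem zeroL_valid (t : ℝ) : zeroL.toLane.Valid t := fun L _ => by
  simp [Lane.F, Lane.A, Lane.B, LD.toLane, zeroL, Fin.sum_univ_six]

theorem combo_spec {fam : List LD} {t : ℝ} (hv : ∀ l ∈ fam, l.toLane.Valid t) (ws : List (ℕ × ℕ)) :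
    ∃ l : LD, l.toLane.Valid t ∧ ∀ k, combo fam ws k = k l := by
  induction ws with
  | nil => exact ⟨zeroL, zeroL_valid t, fun _ => rfl⟩
  | cons p ws ih =>
    obtain ⟨m, hm, hk⟩ := ih
    obtain ⟨l, hl, hl'⟩ : ∃ l, fam.getD p.1 zeroL = l ∧ l.toLane.Valid t := by
      refine ⟨_, rfl, ?_⟩
      by_cases h : p.1 < fam.length
      · rw [List.getD_eq_getElem _ _ h]
        exact hv _ (List.getElem_mem h)
      · rw [List.getD_eq_default _ _ (not_lt.1 h)]
        exact zeroL_valid t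
    refine ⟨axpy p.2 l m id, ?_, fun k => ?_⟩
    · convert Lane.Valid.comb hl' hm (Nat.cast_nonneg p.2) zero_le_one using 1
      simp only [axpy, force_eq, id, LD.toLane, Lane.comb, Nat.add_eq, Nat.mul_eq, Lane.mk.injEq]
      push_cast
      refine ⟨funext fun j => ?_, funext fun j => ?_, by ring, by ring, by ring⟩ <;> fin_cases j <;> simp
    · refine (hk fun m => axpy p.2 (fam.getD p.1 zeroL) m k).trans ?_
      simp only [hl, axpy, force_eq, id]

theorem endOk_sound {l : LD} {dU K Z : ℕ} (hU : dU = 0 ∨ 4 ≤ dU) (hZ : Z ≤ 4194304) (h : endOk l dU K Z = true) :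
    (K : ℝ) / 2 ^ 128 < l.e * (1 - PhiU dU ((Z : ℝ) / 2 ^ 20)) + ((l.np : ℝ) - l.nm) * ((Z : ℝ) / 2 ^ 20) := by
  simp only [endOk, Nat.blt_eq, Nat.sub_eq, Nat.add_eq, Nat.mul_eq, Nat.shiftLeft_eq', Nat.shiftLeft_eq] at h
  have h1 : (K : ℝ) + l.nm * Z * 2 ^ 108 < l.e * (o64 - phiU dU Z : ℕ) * 2 ^ 64 + l.np * Z * 2 ^ 108 := by
    exact_mod_cast h
  have h2 : ((o64 - phiU dU Z : ℕ) : ℝ) ≤ 2 ^ 64 * (1 - PhiU dU ((Z : ℝ) / 2 ^ 20)) := by
    rcases le_total (phiU dU Z) o64 with h3 | h3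
    · rw [Nat.cast_sub h3, o64_cast]
      linarith [phiU_sound hU hZ]
    · rw [Nat.sub_eq_zero_of_le h3, Nat.cast_zero]
      refine mul_nonneg (by positivity) (sub_nonneg.2 ?_)
      unfold PhiU
      split_ifs with h4
      · exact Real.exp_le_one_iff.2 (neg_nonpos.2 (by positivity))
      · have hZ' : (Z : ℝ) ≤ 4194304 := by exact_mod_cast hZ
        have h5 : (4 : ℝ) ≤ dU := by exact_mod_cast hU.resolve_left h4
        exact pow_le_one₀ (sub_nonneg.2 ((div_le_one (by linarith)).2 (by linarith)))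
          (sub_le_self _ (by positivity))
  linarith [mul_le_mul_of_nonneg_left h2 (Nat.cast_nonneg (α := ℝ) l.e)]

theorem laneOk_sound {O : Off} {dL dU : ℕ} (hO : O.Cls dL dU) (hL : 0 < dL) (hU : dU = 0 ∨ 4 ≤ dU) {l : LD}
    {za : ℕ} {it : It} (h : laneOk l dL dU za it = true) {z : ℝ} (h1 : (za : ℝ) / 2 ^ 20 ≤ z)
    (h2 : z ≤ (it.zb : ℝ) / 2 ^ 20) : l.toLane.Excl O z := by
  simp only [laneOk, force_eq, Bool.and_eq_true, Nat.ble_eq, Nat.add_eq, Nat.mul_eq] at h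
  obtain ⟨⟨⟨c0, c1⟩, c2, c3⟩, ⟨c4, c5⟩, hb, ea, eb⟩ := h
  have hb' : (it.zb : ℝ) ≤ 4194304 := by exact_mod_cast hb
  have ha : za ≤ 4194304 := by
    have : (za : ℝ) ≤ 4194304 := by linarith
    exact_mod_cast this
  have h0 : (0 : ℝ) ≤ (za : ℝ) / 2 ^ 20 := by positivity
  have he : (0 : ℝ) ≤ l.e := Nat.cast_nonneg _
  have key := phiU_concave hU he h0 (by linarith) h1 h2 (endOk_sound hU ha ea) (endOk_sound hU hb eb)
  have hup := mul_le_mul_of_nonneg_left (hO.up z (h0.trans h1) (by linarith)) he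
  refine ⟨![(conjC dL l.a0 l.b0 it.x0 : ℝ) / 2 ^ 128, (conjC dL l.a1 l.b1 it.x1 : ℝ) / 2 ^ 128,
    (conjC dL l.a2 l.b2 it.x2 : ℝ) / 2 ^ 128, (conjC dL l.a3 l.b3 it.x3 : ℝ) / 2 ^ 128,
    (conjC dL l.a4 l.b4 it.x4 : ℝ) / 2 ^ 128, (conjC dL l.a5 l.b5 it.x5 : ℝ) / 2 ^ 128], fun j => ?_, ?_⟩
  · fin_cases j
    exacts [conj_sound hO hL c0, conj_sound hO hL c1, conj_sound hO hL c2, conj_sound hO hL c3,
      conj_sound hO hL c4, conj_sound hO hL c5]
  · simp only [Nat.cast_add, Nat.cast_mul, o128_cast] at key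
    simp only [Fin.sum_univ_six, LD.toLane, Matrix.cons_val]
    linarith

theorem cover_sound {O : Off} {dL dU : ℕ} (hO : O.Cls dL dU) (hL : 0 < dL) (hU : dU = 0 ∨ 4 ≤ dU)
    {fam : List LD} {t : ℝ} (hv : ∀ l ∈ fam, l.toLane.Valid t) {zE za : ℕ} {its : List It}
    (h : cover fam dL dU zE its za = true) {z : ℝ} (h1 : (za : ℝ) / 2 ^ 20 < z) (h2 : z ≤ (zE : ℝ) / 2 ^ 20) :
    ∃ l : Lane, l.Valid t ∧ l.Excl O z := by
  induction its generalizing za with
  | nil =>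
    have : (zE : ℝ) ≤ za := by exact_mod_cast Nat.le_of_ble_eq_true h
    linarith
  | cons it its ih =>
    obtain ⟨h3, h4⟩ := Bool.and_eq_true_iff.1 (show (combo fam it.ws (fun l => laneOk l dL dU za it) &&
      cover fam dL dU zE its it.zb) = true from h)
    rcases le_or_gt z ((it.zb : ℝ) / 2 ^ 20) with h5 | h5
    · obtain ⟨l, hl, hk⟩ := combo_spec hv it.ws
      rw [hk] at h3
      exact ⟨_, hl, laneOk_sound hO hL hU h3 h1.le h5⟩
    · exact ih h4 h5

end Crest.Agent.R163.E4
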